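import Vale.Agent.P171.Final

open MeasureTheory Vale.Agent.P171

/-- There is a bounded, continuous, stable, tempered radial pair potential on `ℝ^3`, with a two
sided power law tail, whose infinite volume pressure is not differentiable in the activity at
some point. -/
theorem Vale.Agent.Results.P171.PhaseTransition.result :
    ∃ φ : ℝ → ℝ, Continuous φ ∧ (∃ M : ℝ, ∀ r : ℝ, 0 ≤ r → |φ r| ≤ M) ∧
      Stable φ ∧ Tempered φ ∧
      (∃ C : ℝ, ∀ r : ℝ, 3 ≤ r → |φ r| ≤ C * r ^ (-3 - 1 / 28 : ℝ)) ∧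
      ∃ β : ℝ, 0 < β ∧
        (∀ (L : ℝ) (N : ℕ), 0 ≤ L → IntegrableOn
          (fun x : Fin N → Space => Real.exp (-β * energy φ x))
          (Set.univ.pi (fun _ : Fin N => box L))) ∧
        (∀ z L : ℝ, 0 < z → 0 ≤ L → Summable (fun N : ℕ => z ^ N * canonicalZ φ β L N)) ∧
        ∃ p : ℝ → ℝ, IsPressure φ β p ∧ ∃ z₀ : ℝ, 0 < z₀ ∧ ¬ DifferentiableAt ℝ p z₀ :=
  Vale.Agent.P171.phase_transition
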